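import Vale.Agent.P097.H83.AI.Core
import Vale.Agent.P097.H128.W.RecC
import Vale.Agent.P097.TC.Defs5

/-!
# P097 / block (AI) (helper83), part 3: `A5.PAI`
-/

set_option linter.all false

open Complex Metric Filter Topology Set MeasureTheory
open scoped ComplexConjugate

namespace Vale.Agent.P097.H83.AI

open Vale.Agent.P097.TC Vale.Agent.P097.H920 Vale.Agent.P097.A5
open Vale.Agent.P097.H85 Vale.Agent.P097.H929

/-- monotonicity in the filter -/
theorem Wn.mono {ι : Type*} {l l' : Filter ι} {b d K : ℝ} {F q : ℂ → ℂ}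
    {al p th : ι → ℂ × ℂ → ℂ} (W : Wn l b d K F q al p th) (h : l' ≤ l) :
    Wn l' b d K F q al p th where
  K0 := W.K0
  d0 := W.d0
  om := fun z hz => by
    obtain ⟨V, hV, hn⟩ := W.om z hz
    exact ⟨V, hV, h hn⟩
  wd := fun z hz => by
    obtain ⟨V, hV, hn⟩ := W.wd z hz
    exact ⟨V, hV, h hn⟩
  mid := by
    obtain ⟨η, hη, hn⟩ := W.mid
    exact ⟨η, hη, h hn⟩
  nr2 := by
    obtain ⟨C, hC, c₁, hc, hn⟩ := W.nr2
    exact ⟨C, hC, c₁, hc, h hn⟩
  touch := fun a w₀ h1 h2 δ₀ hδ => by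
    obtain ⟨ε, hε, hn⟩ := W.touch a w₀ h1 h2 δ₀ hδ
    exact ⟨ε, hε, h hn⟩

variable {Λ H : ℝ} {F q : ℂ → ℂ} {b m : ℝ} {Ψ : ℂ → ℂ} {Mj Mk B : Set (ℂ × ℂ)}
  {A : Set ℝ} {P : ℝ → ℂ} {c k : ℝ → ℝ} {K s y₀ u₀ σ : ℝ} {al p th : ℂ × ℂ → ℂ} {J : ℂ → ℂ}
  {y u r : ℕ → ℝ}

/-- windows of `L_j` -/
theorem ev_j (W : W5 Λ H F q b m Ψ Mj Mk B A P c k K y₀ u₀ σ s al p th J) (S : Sq A y₀ u₀ y u)
    (hr : Tendsto r atTop (𝓝[>] 0)) {X : Set (ℂ × ℂ)} (hX : IsCompact X) (hXG : X ⊆ GB) :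
    ∀ᶠ n in atTop, ∀ z ∈ X, kpt (P (u n)).im (c u₀) σ (y n) (u n) (r n) z ∈ Mj := by
  have hK' : IsCompact (lsh (c u₀) σ '' X) := hX.image (continuous_lsh _ _)
  have hKG' : lsh (c u₀) σ '' X ⊆ Gc (c u₀) σ := by
    rintro _ ⟨z, hz, rfl⟩
    refine ⟨(hXG hz).2, ?_⟩
    rw [lsh_im]
    have := (hXG hz).1
    show z.1.im + c u₀ * z.2.re + σ * z.2.im < c u₀ * z.2.re + σ * z.2.im
    linarith
  obtain ⟨d, hd, r₀, hr₀, hb⟩ := blow_dom W.u0 W.cR W.cc (W.hb _ W.u0) W.regj hK' hKG'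
  have := ev_of S.yt S.ut (Eventually.of_forall S.uA) hr (Q := fun u y r =>
    ∀ z ∈ lsh (c u₀) σ '' X, bpt (P u).im y u r z ∈ Mj) hd hr₀ hb
  filter_upwards [this] with n hn z hz
  exact hn _ ⟨z, hz, rfl⟩

/-- windows of `L_k` -/
theorem ev_k (W : W5 Λ H F q b m Ψ Mj Mk B A P c k K y₀ u₀ σ s al p th J) (S : Sq A y₀ u₀ y u)
    (hr : Tendsto r atTop (𝓝[>] 0)) {X : Set (ℂ × ℂ)} (hX : IsCompact X) (hXG : X ⊆ WB (s - σ)) :
    ∀ᶠ n in atTop, ∀ z ∈ X, kpt (P (u n)).im (c u₀) σ (y n) (u n) (r n) z ∈ Mk := by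
  have hK' : IsCompact (lsh (c u₀) σ '' X) := hX.image (continuous_lsh _ _)
  have hKG' : lsh (c u₀) σ '' X ⊆ Gc (c u₀) s := by
    rintro _ ⟨z, hz, rfl⟩
    refine ⟨(hXG hz).1, ?_⟩
    rw [lsh_im]
    have := (hXG hz).2
    show z.1.im + c u₀ * z.2.re + σ * z.2.im < c u₀ * z.2.re + s * z.2.im
    linarith
  obtain ⟨d, hd, r₀, hr₀, hb⟩ := blow_dom W.u0 W.cR W.cc (W.hb _ W.u0) W.regk hK' hKG'
  have := ev_of S.yt S.ut (Eventually.of_forall S.uA) hr (Q := fun u y r =>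
    ∀ z ∈ lsh (c u₀) σ '' X, bpt (P u).im y u r z ∈ Mk) hd hr₀ hb
  filter_upwards [this] with n hn z hz
  exact hn _ ⟨z, hz, rfl⟩

/-- native windows -/
theorem ev_B (W : W5 Λ H F q b m Ψ Mj Mk B A P c k K y₀ u₀ σ s al p th J) (S : Sq A y₀ u₀ y u)
    (hr : Tendsto r atTop (𝓝[>] 0)) {X : ℝ} (hX : 0 < X) :
    ∀ᶠ n in atTop, ∀ z ∈ NB (K + |σ| + 1), ‖z‖ ≤ X →
      kpt (P (u n)).im (c u₀) σ (y n) (u n) (r n) z ∈ B ∧
      (kpt (P (u n)).im (c u₀) σ (y n) (u n) (r n) z).2 ≠ 0 := by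
  obtain ⟨δ, hδ, hcone⟩ := W.coneU (1 / 2) (by norm_num)
  have hr0 : Tendsto r atTop (𝓝 0) := hr.mono_right nhdsWithin_le_nhds
  have hrp : ∀ᶠ n in atTop, 0 < r n := hr.eventually self_mem_nhdsWithin
  -- the continuity of the data
  have hP : Tendsto (fun n => (P (u n)).im) atTop (𝓝 (P u₀).im) := by
    have h1 : Tendsto u atTop (𝓝[A] u₀) :=
      tendsto_nhdsWithin_iff.2 ⟨S.ut, Eventually.of_forall S.uA⟩
    exact (W.cR u₀ W.u0).tendsto.comp h1
  have hcc : Tendsto (fun n => c (u n)) atTop (𝓝 (c u₀)) := by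
    have h1 : Tendsto u atTop (𝓝[A] u₀) :=
      tendsto_nhdsWithin_iff.2 ⟨S.ut, Eventually.of_forall S.uA⟩
    exact (W.cc u₀ W.u0).tendsto.comp h1
  set Y : ℝ := X * (1 + |c u₀| + |σ|) with hY
  have hY0 : 0 < Y := by positivity
  have hrX : Tendsto (fun n => r n * X) atTop (𝓝 0) := by simpa using hr0.mul_const X
  have hb := W.hb _ W.u0
  have hrY : Tendsto (fun n => (P (u n)).im - r n * Y) atTop (𝓝 (P u₀).im) := by
    simpa using hP.sub (hr0.mul_const Y)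
  have hu0 : 0 < |u₀| := abs_pos.2 (W.uz _ W.u0)
  have hur : Tendsto (fun n => |u n| - r n * X) atTop (𝓝 |u₀|) := by
    simpa using S.ut.abs.sub hrX
  have e1 := hrX.eventually_lt_const hδ
  have e2 := hrY.eventually_const_lt hb
  have e3 := hur.eventually_const_lt hu0
  have e4 := Metric.tendsto_nhds.1 hcc (1 / 2) (by norm_num)
  filter_upwards [hrp, e1, e2, e3, e4] with n hrn a1 a2 a3 a4
  intro z hz hzX
  have hz1 : ‖z.1‖ ≤ X := (norm_fst_le z).trans hzX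
  have hz2 : ‖z.2‖ ≤ X := (norm_snd_le z).trans hzX
  have hzN : z.1.im < -(K + |σ| + 1) * ‖z.2‖ := hz
  rw [Real.dist_eq] at a4
  have him : (kpt (P (u n)).im (c u₀) σ (y n) (u n) (r n) z).1.im =
      (P (u n)).im + r n * (z.1.im + c u₀ * z.2.re + σ * z.2.im) := by
    rw [kpt_eq]
    simp only [add_im, mul_im, ofReal_re, ofReal_im, I_re, I_im, add_re, mul_re]
    ring
  have hre := Complex.abs_re_le_norm z.2
  have hi2 := Complex.abs_im_le_norm z.2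
  have hi1 := Complex.abs_im_le_norm z.1
  have h1 : |c u₀ * z.2.re| ≤ |c u₀| * X := by
    rw [abs_mul]
    exact mul_le_mul_of_nonneg_left (hre.trans hz2) (abs_nonneg _)
  have h2 : |σ * z.2.im| ≤ |σ| * X := by
    rw [abs_mul]
    exact mul_le_mul_of_nonneg_left (hi2.trans hz2) (abs_nonneg _)
  constructor
  · rw [kpt_eq] at him ⊢
    refine hcone (u n) (S.uA n) _ ?_ _ ?_ ?_
    · rw [norm_mul, Complex.norm_real, Real.norm_eq_abs, abs_of_pos hrn]
      exact (mul_le_mul_of_nonneg_left hz2 hrn.le).trans_lt a1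
    · rw [him]
      have h3 : -Y ≤ z.1.im + c u₀ * z.2.re + σ * z.2.im := by
        have g1 := (abs_le.1 (hi1.trans hz1)).1
        have g2 := (abs_le.1 h1).1
        have g3 := (abs_le.1 h2).1
        have g4 : Y = X + |c u₀| * X + |σ| * X := by rw [hY]; ring
        linarith
      have h4 := mul_le_mul_of_nonneg_left h3 hrn.le
      linarith
    · rw [him]
      have g1 : ((r n : ℂ) * z.2).re = r n * z.2.re := by simp
      have g2 : ((r n : ℂ) * z.2).im = r n * z.2.im := by simp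
      rw [g1, g2, norm_mul, Complex.norm_real, Real.norm_eq_abs, abs_of_pos hrn, abs_mul,
        abs_of_pos hrn]
      have g3 : |(c (u n) - c u₀) * z.2.re| ≤ 1 / 2 * ‖z.2‖ := by
        rw [abs_mul]
        exact mul_le_mul a4.le hre (abs_nonneg _) (by norm_num)
      have g4 : |σ * z.2.im| ≤ |σ| * ‖z.2‖ := by
        rw [abs_mul]
        exact mul_le_mul_of_nonneg_left hi2 (abs_nonneg _)
      have g5 : K * |z.2.im| ≤ K * ‖z.2‖ := mul_le_mul_of_nonneg_left hi2 W.K0.le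
      have g6 : z.1.im + c u₀ * z.2.re + σ * z.2.im <
          c (u n) * z.2.re - K * |z.2.im| - 1 / 2 * ‖z.2‖ := by
        have k1 := (abs_le.1 g3).1
        have k2 := (abs_le.1 g4).2
        have k3 : (c (u n) - c u₀) * z.2.re = c (u n) * z.2.re - c u₀ * z.2.re := by ring
        have k4 : -(K + |σ| + 1) * ‖z.2‖ = -(K * ‖z.2‖) - |σ| * ‖z.2‖ - ‖z.2‖ := by ring
        linarith
      have g7 := mul_lt_mul_of_pos_left g6 hrn
      have g8 : r n * (c (u n) * z.2.re - K * |z.2.im| - 1 / 2 * ‖z.2‖) =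
          c (u n) * (r n * z.2.re) - K * (r n * |z.2.im|) - 1 / 2 * (r n * ‖z.2‖) := by ring
      linarith
  · rw [kpt_eq]
    show (u n : ℂ) + r n * z.2 ≠ 0
    intro hcon
    have g1 : ‖(u n : ℂ)‖ = ‖(r n : ℂ) * z.2‖ := by
      rw [eq_neg_of_add_eq_zero_left hcon, norm_neg]
    rw [norm_mul, Complex.norm_real, Complex.norm_real, Real.norm_eq_abs, Real.norm_eq_abs,
      abs_of_pos hrn] at g1
    have g2 := mul_le_mul_of_nonneg_left hz2 hrn.le
    linarith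

theorem kpt_diff (R c' σ' y' u' r' : ℝ) : Differentiable ℂ (kpt R c' σ' y' u' r') := by
  have : kpt R c' σ' y' u' r' = fun p : ℂ × ℂ =>
      ((y' : ℂ) + (R : ℂ) * I + r' * (p.1 + (I * c' + σ') * p.2), (u' : ℂ) + r' * p.2) := by
    funext p; exact kpt_eq _ _ _ _ _ _ _
  rw [this]
  fun_prop

/-- the vertical point in blown up coordinates -/
theorem kpt_vert (P : ℝ → ℂ) (c' σ' y' u' r' : ℝ) :
    kpt (P u').im c' σ' y' u' r' (-I, 0) = vp P y' u' r' := by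
  rw [kpt_eq, vp]
  ext1
  · simp only
    push_cast
    ring
  · simp

theorem kpt_vert' (P : ℝ → ℂ) (c' σ' y' y'' u' r' S' : ℝ) (hr : r' ≠ 0) :
    kpt (P u').im c' σ' y' u' r' ((((y'' - y') / r' : ℝ) : ℂ) - ((S' / r' : ℝ) : ℂ) * I, 0) =
      vp P y'' u' S' := by
  have hr' : (r' : ℂ) ≠ 0 := by exact_mod_cast hr
  rw [kpt_eq, vp]
  ext1
  · simp only
    push_cast
    field_simp
    ring
  · simp

/-- **the instance** -/
theorem wn_of (W : W5 Λ H F q b m Ψ Mj Mk B A P c k K y₀ u₀ σ s al p th J) (S : Sq A y₀ u₀ y u)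
    (T : Tou H P c u₀ σ th y u) {C c₁ : ℝ} (hC : 0 < C) (hc₁ : 0 < c₁) {h : ℕ → ℝ}
    (N : ∀ n, Nst H b F P th C c₁ (h n) (y n) (u n)) (hr : ∀ n, 0 < r n ∧ r n < h n)
    (hr0 : Tendsto r atTop (𝓝 0)) :
    Wn (atTop : Filter ℕ) H (s - σ) (K + |σ| + 1) F q
      (fun n z => al (kpt (P (u n)).im (c u₀) σ (y n) (u n) (r n) z))
      (fun n z => p (kpt (P (u n)).im (c u₀) σ (y n) (u n) (r n) z))
      (fun n z => th (kpt (P (u n)).im (c u₀) σ (y n) (u n) (r n) z)) := by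
  have hrt : Tendsto r atTop (𝓝[>] 0) :=
    tendsto_nhdsWithin_iff.2 ⟨hr0, Eventually.of_forall fun n => (hr n).1⟩
  have hK0 : 0 < K + |σ| + 1 := by have := W.K0; positivity
  have hH : 0 < H := W.crv.cv.b0
  -- domain facts near a point of `OmB`
  have hdom : ∀ z ∈ OmB (K + |σ| + 1), ∃ V ∈ 𝓝 z, ∀ᶠ n in atTop, ∀ z' ∈ V,
      kpt (P (u n)).im (c u₀) σ (y n) (u n) (r n) z' ∈ Dm Mj Mk := by
    rintro z (hz | hz)
    · obtain ⟨e, he, heG⟩ := Metric.isOpen_iff.1 isOpen_GB z hz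
      have hcb : closedBall z (e / 2) ⊆ GB := (closedBall_subset_ball (by linarith)).trans heG
      have h1 := ev_j W S hrt (isCompact_closedBall z (e / 2)) hcb
      have h2 := ev_k W S hrt (isCompact_closedBall z (e / 2))
        (hcb.trans (GB_sub_WB (sub_pos.2 W.σs).le))
      refine ⟨closedBall z (e / 2), closedBall_mem_nhds z (by positivity), ?_⟩
      filter_upwards [h1, h2] with n a1 a2 z' hz'
      refine ⟨⟨a1 z' hz', a2 z' hz'⟩, ?_⟩
      show (kpt (P (u n)).im (c u₀) σ (y n) (u n) (r n) z').2 ≠ 0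
      intro hcon
      have g1 : ((kpt (P (u n)).im (c u₀) σ (y n) (u n) (r n) z').2).im = r n * z'.2.im := by
        rw [kpt_eq]; simp
      rw [hcon, zero_im] at g1
      have g2 := mul_pos (hr n).1 (hcb hz').2
      linarith
    · obtain ⟨e, he, heG⟩ := Metric.isOpen_iff.1 (isOpen_NB (K + |σ| + 1)) z hz
      have h1 := ev_B W S hrt (X := ‖z‖ + e + 1) (by positivity)
      refine ⟨ball z e, ball_mem_nhds z he, ?_⟩
      filter_upwards [h1] with n a1 z' hz'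
      have g1 : ‖z'‖ ≤ ‖z‖ + e + 1 := by
        have g2 := mem_ball.1 hz'
        rw [dist_eq_norm] at g2
        have g3 := norm_add_le z (z' - z)
        rw [add_sub_cancel] at g3
        linarith
      obtain ⟨g4, g5⟩ := a1 z' (heG hz') g1
      exact ⟨⟨W.Bj g4, W.Bk g4⟩, g5⟩
  refine ⟨hK0.le, sub_pos.2 W.σs, ?_, ?_, ?_, ?_, ?_⟩
  · intro z hz
    obtain ⟨V, hV, hn⟩ := hdom z hz
    refine ⟨V, hV, hn.mono fun n a => ⟨?_, ?_, fun z' hz' => ?_⟩⟩
    · exact W.dth.comp (kpt_diff _ _ _ _ _ _).differentiableOn a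
    · exact W.dal.comp (kpt_diff _ _ _ _ _ _).differentiableOn fun z' hz' => (a z' hz').1.2
    · exact ⟨W.mem _ (a z' hz'), W.inc _ (a z' hz'), W.smp _ (a z' hz')⟩
  · intro z hz
    obtain ⟨e, he, heG⟩ := Metric.isOpen_iff.1 (isOpen_WB (s - σ)) z hz
    have hcb : closedBall z (e / 2) ⊆ WB (s - σ) :=
      (closedBall_subset_ball (by linarith)).trans heG
    refine ⟨closedBall z (e / 2), closedBall_mem_nhds z (by positivity), ?_⟩
    filter_upwards [ev_k W S hrt (isCompact_closedBall z (e / 2)) hcb] with n a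
    exact ⟨W.dal.comp (kpt_diff _ _ _ _ _ _).differentiableOn a,
      W.dp.comp (kpt_diff _ _ _ _ _ _).differentiableOn a⟩
  · refine ⟨c₁ * H, by positivity, Eventually.of_forall fun n => ?_⟩
    simp only [kpt_vert]
    have := (N n).mid (r n) (hr n).1 (hr n).2
    linarith
  · refine ⟨C, hC, c₁, hc₁, Eventually.of_forall fun n => ?_⟩
    obtain ⟨y', S', h1, h2, h3, h4⟩ := (N n).nr2 (r n) (hr n).1 (hr n).2
    have hrn := (hr n).1
    refine ⟨(((y' - y n) / r n : ℝ) : ℂ) - ((S' / r n : ℝ) : ℂ) * I, ?_, ?_, ?_, ?_⟩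
    · have e : ((((y' - y n) / r n : ℝ) : ℂ) - ((S' / r n : ℝ) : ℂ) * I).re =
          (y' - y n) / r n := by simp
      rw [e, abs_div, abs_of_pos hrn, div_le_iff₀ hrn]
      exact h1
    · have e : ((((y' - y n) / r n : ℝ) : ℂ) - ((S' / r n : ℝ) : ℂ) * I).im = -(S' / r n) := by
        simp
      rw [e, neg_neg, div_le_iff₀ hrn]
      exact h3
    · have e : ((((y' - y n) / r n : ℝ) : ℂ) - ((S' / r n : ℝ) : ℂ) * I).im = -(S' / r n) := by
        simp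
      rw [e, neg_neg, ← mul_div_assoc, le_div_iff₀ hrn, one_mul]
      exact h2
    · rw [kpt_vert' P (c u₀) σ (y n) y' (u n) (r n) S' hrn.ne']
      exact h4
  · intro a w₀ h1 h2 δ₀ hδ₀
    exact T r hrt w₀ h1 h2 a δ₀ hδ₀

/-- the vertical point is in the domain -/
theorem vp_mem (W : W5 Λ H F q b m Ψ Mj Mk B A P c k K y₀ u₀ σ s al p th J) {u' : ℝ} (hu : u' ∈ A)
    {y' S : ℝ} (hS : 0 < S) (hb : b < (P u').im - S) : vp P y' u' S ∈ Dm Mj Mk := by
  obtain ⟨δ, hδ, hcone⟩ := W.coneU 1 one_pos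
  have h1 := hcone u' hu 0 (by simpa using hδ) ((y' : ℂ) + ((P u').im - S : ℝ) * I)
    (by simpa using hb) (by simpa using hS)
  rw [add_zero] at h1
  refine ⟨⟨W.Bj h1, W.Bk h1⟩, ?_⟩
  show (u' : ℂ) ≠ 0
  exact_mod_cast W.uz u' hu

/-- `Im del` is continuous along the vertical -/
theorem cont_V (W : W5 Λ H F q b m Ψ Mj Mk B A P c k K y₀ u₀ σ s al p th J) (S : Sq A y₀ u₀ y u)
    {C c₁ : ℝ} {h : ℕ → ℝ} (N : ∀ n, Nst H b F P th C c₁ (h n) (y n) (u n)) (n : ℕ) {g : ℝ}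
    (hg : g < h n) : ContinuousOn (Vn F P al th y u n) (Ioc 0 g) := by
  have hC1 : 1 ≤ C := by
    have h0 := (N n).h0
    obtain ⟨y', S', h1, h2, h3, h4⟩ := (N n).nr2 (h n / 2) (by linarith) (by linarith)
    have hC0 : 0 ≤ C := by
      by_contra hcon
      push Not at hcon
      have k1 : C * (h n / 2) < 0 := mul_neg_of_neg_of_pos hcon (by linarith)
      have := abs_nonneg (y' - y n)
      linarith
    by_contra hcon
    push Not at hcon
    have k1 : C * S' ≤ C * (C * (h n / 2)) := mul_le_mul_of_nonneg_left h3 hC0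
    have k2 : C * (C * (h n / 2)) < h n / 2 := by
      have k3 : C * C < 1 := by nlinarith
      have k4 : 0 < h n / 2 := by linarith
      nlinarith
    linarith
  have hmem : ∀ S ∈ Ioc (0 : ℝ) g, vp P (y n) (u n) S ∈ Dm Mj Mk := by
    intro S' hS'
    refine vp_mem W (S.uA n) hS'.1 ?_
    have k1 := (N n).hb
    have k2 : S' < h n := hS'.2.trans_lt hg
    have k3 : h n ≤ C * h n := le_mul_of_one_le_left (N n).h0.le hC1
    linarith
  have hvc : Continuous fun S : ℝ => vp P (y n) (u n) S := by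
    unfold vp
    fun_prop
  have h1 : ContinuousOn (fun S : ℝ => al (vp P (y n) (u n) S)) (Ioc 0 g) :=
    W.dal.continuousOn.comp hvc.continuousOn fun S' hS' => (hmem S' hS').1.2
  have h2 : ContinuousOn (fun S : ℝ => th (vp P (y n) (u n) S)) (Ioc 0 g) :=
    W.dth.continuousOn.comp hvc.continuousOn hmem
  have h3 : ContinuousOn (fun S : ℝ => F (th (vp P (y n) (u n) S))) (Ioc 0 g) :=
    W.crv.cv.dF.continuousOn.comp h2 fun S' hS' => W.mem _ (hmem S' hS')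
  exact Complex.continuous_im.comp_continuousOn (h1.sub h3)

/-- **PAI** -/
theorem pai : PAI := by
  intro Λ H F q b m Ψ Mj Mk B A P c k K s y₀ u₀ σ al p th J y u W S T C c₁ hC hc₁ h g N hg L
  set g' : ℕ → ℝ := fun n => min (g n) (1 / ((n : ℝ) + 1)) with hg'
  have hg'0 : ∀ n, 0 < g' n := fun n => lt_min (hg n).1 (by positivity)
  have hg'g : ∀ n, g' n ≤ g n := fun n => min_le_left _ _
  have hg't : Tendsto g' atTop (𝓝 0) :=
    squeeze_zero (fun n => (hg'0 n).le) (fun n => min_le_right _ _)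
      tendsto_one_div_add_atTop_nhds_zero_nat
  have hcont : ∀ n, ContinuousOn (Vn F P al th y u n) (Ioc 0 (g' n)) := fun n =>
    cont_V W S N n ((hg'g n).trans_lt (hg n).2)
  have hWd : Wd (s - σ) = WB (s - σ) := rfl
  obtain ⟨G, hG, hrec⟩ := H128.W.records_seq hg'0 hcont
  obtain ⟨ρ, hρ, hL⟩ := L G fun n => ⟨(hG n).1, (hG n).2.trans (hg'g n)⟩
  obtain ⟨r, hr, hr2, hcase⟩ := hrec ρ fun n => (hρ n).1
  have hrt : Tendsto r atTop (𝓝 0) :=
    squeeze_zero (fun n => (hr n).1.le) (fun n => (hr n).2.2.trans (hG n).2) hg't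
  have hrh : ∀ n, 0 < r n ∧ r n < h n := fun n =>
    ⟨(hr n).1, (((hr n).2.2.trans (hG n).2).trans (hg'g n)).trans_lt (hg n).2⟩
  have hrρ : ∀ n, 0 < r n ∧ r n ≤ ρ n := fun n => ⟨(hr n).1, (hr n).2.1⟩
  have hF := W.crv.Fp
  have hq := W.crv.qp
  rcases hcase with ⟨V₁, hV₁⟩ | ⟨𝒰, h𝒰, ht⟩ | ⟨𝒰, h𝒰, ht⟩
  · -- bounded
    obtain ⟨G', hG', hb⟩ := H128.W.tops_of_bdd hg'0 hV₁
    obtain ⟨ρ', hρ', hL'⟩ := L G' fun n => ⟨(hG' n).1, (hG' n).2.trans (hg'g n)⟩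
    set g₁ : ℕ → ℝ := ρ' with hg₁
    have h0 : ∀ n, 0 < g₁ n ∧ g₁ n ≤ g' n := fun n =>
      ⟨(hρ' n).1, (hρ' n).2.trans (hG' n).2⟩
    have hHon : ∀ r : ℕ → ℝ, (∀ n, 0 < r n ∧ r n ≤ g₁ n) →
        ∀ 𝒰 : Ultrafilter ℕ, (𝒰 : Filter ℕ) ≤ atTop →
        Hon F q (s - σ) al p (fun n => kpt (P (u n)).im (c u₀) σ (y n) (u n) (r n)) 𝒰 := by
      intro r hr 𝒰 h𝒰
      have hrt : Tendsto r atTop (𝓝 0) :=
        squeeze_zero (fun n => (hr n).1.le) (fun n => (hr n).2.trans (h0 n).2) hg't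
      have h1 : ∀ᶠ n in (𝒰 : Filter ℕ), ∀ S : ℝ, 0 < S → S ≤ G' n →
          |Vn F P al th y u n S| ≤ V₁ := h𝒰 hb
      have h2 := hL' r hr hrt 𝒰 h𝒰 V₁ (h1.mono fun n hn S hS1 hS2 => by
        have k1 := hn S ((hr n).1.trans_le hS1) hS2
        have k2 := abs_nonneg (Vn F P al th y u n (r n))
        linarith)
      exact h2.1 (h1.mono fun n hn => hn _ (hr n).1 ((hr n).2.trans (hρ' n).2))
    refine ⟨g₁, V₁, fun n => ⟨(h0 n).1, (h0 n).2.trans (hg'g n)⟩,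
      squeeze_zero (fun n => (h0 n).1.le) (fun n => (h0 n).2) hg't,
      ⟨hb.mono fun n hn S h1 h2 => hn S h1 (h2.trans (hρ' n).2), hHon⟩, ?_⟩
    -- tangential
    by_contra hcon
    rw [TT] at hcon
    push Not at hcon
    obtain ⟨ε, hε, hfr⟩ := hcon
    classical
    set r' : ℕ → ℝ := fun n => if hn : ∃ r : ℝ, 0 < r ∧ r ≤ g₁ n ∧
      ε < ‖Complex.sin (del F al th (vp P (y n) (u n) r))‖ then hn.choose else g₁ n with hr'
    have hr'1 : ∀ n, 0 < r' n ∧ r' n ≤ g₁ n := by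
      intro n
      rw [hr']
      simp only
      split_ifs with hn
      · exact ⟨hn.choose_spec.1, hn.choose_spec.2.1⟩
      · exact ⟨(h0 n).1, le_rfl⟩
    have hfr' : ∃ᶠ n in atTop, ε < ‖Complex.sin (del F al th (vp P (y n) (u n) (r' n)))‖ := by
      refine hfr.mono fun n hn => ?_
      rw [hr']
      simp only
      rw [dif_pos hn]
      exact hn.choose_spec.2.2
    obtain ⟨𝒰, h𝒰, hev⟩ : ∃ 𝒰 : Ultrafilter ℕ, (𝒰 : Filter ℕ) ≤ atTop ∧
        ∀ᶠ n in (𝒰 : Filter ℕ), ε < ‖Complex.sin (del F al th (vp P (y n) (u n) (r' n)))‖ := by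
      have hne : (atTop ⊓ 𝓟 {n | ε < ‖Complex.sin (del F al th (vp P (y n) (u n) (r' n)))‖} :
          Filter ℕ).NeBot := by
        rw [← frequently_mem_iff_neBot]
        exact hfr'
      refine ⟨Ultrafilter.of (atTop ⊓ 𝓟 {n | ε < ‖Complex.sin (del F al th
        (vp P (y n) (u n) (r' n)))‖}), (Ultrafilter.of_le _).trans inf_le_left, ?_⟩
      exact (Ultrafilter.of_le _) (mem_inf_of_right (mem_principal_self _))
    have hr't : Tendsto r' atTop (𝓝 0) :=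
      squeeze_zero (fun n => (hr'1 n).1.le) (fun n => (hr'1 n).2.trans (h0 n).2) hg't
    have hW := (wn_of W S T hC hc₁ N (r := r') (fun n => ⟨(hr'1 n).1,
      (((hr'1 n).2.trans (h0 n).2).trans (hg'g n)).trans_lt (hg n).2⟩) hr't).mono h𝒰
    obtain ⟨N', al', p', d1, d2, t1, t2⟩ := hHon r' hr'1 𝒰 h𝒰
    refine hW.hon W.crv.cv hF hq (N' := N') (al' := al') (p' := p') d1 t1 t2 hε ?_
    filter_upwards [hev] with n hn
    simp only [kpt_vert]
    exact hn.le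
  · exfalso
    have hW := (wn_of W S T hC hc₁ N hrh hrt).mono h𝒰
    obtain ⟨B', -, t1, t2⟩ := (hL r hrρ hrt 𝒰 h𝒰 1
      (Eventually.of_forall fun n S' h1 h2 => hr2 n S' h1 h2)).2.1 ht
    rw [hWd] at t1 t2
    refine hW.iso W.crv.cv hF hq (B' := B') ?_ ?_
    · simpa only [one_mul] using t1
    · simpa only [one_mul] using t2
  · exfalso
    have hW := (wn_of W S T hC hc₁ N hrh hrt).mono h𝒰
    obtain ⟨B', -, t1, t2⟩ := (hL r hrρ hrt 𝒰 h𝒰 1
      (Eventually.of_forall fun n S' h1 h2 => hr2 n S' h1 h2)).2.2 ht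
    rw [hWd] at t1 t2
    refine hW.iso' W.crv.cv hF hq (B' := B') ?_ ?_
    · simpa only [neg_mul, one_mul] using t1
    · simpa only [neg_mul, one_mul] using t2

end Vale.Agent.P097.H83.AI

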