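import Vale.Agent.P097.H83.AI.Slice
import Vale.Agent.P097.H920.Pai

/-!
# P097 / block (AI) (helper83), part 2: windows over the two-sided native cone

`Wn` = what is used of a sequence of windows along an ultrafilter: the position and the line on
`OmB K = GB ∪ {Im κ < -K ‖w‖}`, the lines on the wide box, mid level and a non R2 position on the
vertical `w = 0`, TOUCH. `Wn.hon`, `Wn.iso`, `Wn.iso'`: contradiction.
-/

set_option linter.all false

open Complex Metric Filter Topology Set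
open scoped ComplexConjugate

namespace Vale.Agent.P097.H83.AI

open Vale.Agent.P097.TC Vale.Agent.P097.H920
open Vale.Agent.P097.H190.Ult

/-- the two-sided cone in blown up coordinates -/
def NB (K : ℝ) : Set (ℂ × ℂ) := {p | p.1.im < -K * ‖p.2‖}

/-- base box with the two-sided cone -/
def OmB (K : ℝ) : Set (ℂ × ℂ) := GB ∪ NB K

theorem isOpen_NB (K : ℝ) : IsOpen (NB K) :=
  isOpen_lt (continuous_im.comp continuous_fst) (continuous_const.mul continuous_snd.norm)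

theorem isOpen_OmB (K : ℝ) : IsOpen (OmB K) := isOpen_GB.union (isOpen_NB K)

theorem convex_NB {K : ℝ} (hK : 0 ≤ K) : Convex ℝ (NB K) := by
  rintro x hx y hy a c ha hc hac
  have hx' : x.1.im < -K * ‖x.2‖ := hx
  have hy' : y.1.im < -K * ‖y.2‖ := hy
  have e1 : (a • x + c • y).1.im = a * x.1.im + c * y.1.im := by simp
  have e2 : ‖(a • x + c • y).2‖ ≤ a * ‖x.2‖ + c * ‖y.2‖ := by
    have : (a • x + c • y).2 = a • x.2 + c • y.2 := rfl
    rw [this]
    refine (norm_add_le _ _).trans ?_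
    rw [norm_smul, norm_smul, Real.norm_eq_abs, Real.norm_eq_abs, abs_of_nonneg ha,
      abs_of_nonneg hc]
  show (a • x + c • y).1.im < -K * ‖(a • x + c • y).2‖
  rw [e1]
  have h3 := mul_le_mul_of_nonneg_left e2 hK
  rcases ha.eq_or_lt with h | h
  · have : c = 1 := by linarith
    subst this
    rw [← h] at h3 ⊢
    nlinarith
  · have h1 := mul_lt_mul_of_pos_left hx' h
    have h2 := mul_le_mul_of_nonneg_left hy'.le hc
    nlinarith

theorem preconn_OmB {K : ℝ} (hK : 0 ≤ K) : IsPreconnected (OmB K) := by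
  refine IsPreconnected.union (((-(K + 1)) * I, I) : ℂ × ℂ) ?_ ?_ convex_GB.isPreconnected
    (convex_NB hK).isPreconnected
  · constructor
    · show ((-((K : ℂ) + 1)) * I).im < 0
      simp
      linarith
    · show 0 < I.im
      simp
  · show ((-((K : ℂ) + 1)) * I).im < -K * ‖(I : ℂ)‖
    simp

theorem vert_mem {K : ℝ} {κ : ℂ} (hκ : κ.im < 0) : ((κ, 0) : ℂ × ℂ) ∈ OmB K := by
  right
  show κ.im < -K * ‖(0 : ℂ)‖
  simpa using hκ

/-- **windows along an ultrafilter** -/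
structure Wn {ι : Type*} (l : Filter ι) (b d K : ℝ) (F q : ℂ → ℂ) (al p th : ι → ℂ × ℂ → ℂ) :
    Prop where
  K0 : 0 ≤ K
  d0 : 0 < d
  om : ∀ z ∈ OmB K, ∃ V ∈ 𝓝 z, ∀ᶠ n in l, DifferentiableOn ℂ (th n) V ∧
    DifferentiableOn ℂ (al n) V ∧ ∀ z' ∈ V, th n z' ∈ Sb b ∧
      Mi F q (al n z') (p n z') (th n z') = 0 ∧
      deriv (Mi F q (al n z') (p n z')) (th n z') ≠ 0
  wd : ∀ z ∈ WB d, ∃ V ∈ 𝓝 z, ∀ᶠ n in l, DifferentiableOn ℂ (al n) V ∧
    DifferentiableOn ℂ (p n) V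
  mid : ∃ η > 0, ∀ᶠ n in l, |(th n (-I, 0)).im| ≤ b - η
  nr2 : ∃ C > 0, ∃ c₁ > 0, ∀ᶠ n in l, ∃ κ : ℂ, |κ.re| ≤ C ∧ -κ.im ≤ C ∧ 1 ≤ C * (-κ.im) ∧
    c₁ ≤ ‖deriv F (th n (κ, 0))‖
  touch : ∀ (a : ℝ) (w₀ : ℂ), 0 < w₀.im → |w₀.re| ≤ w₀.im / 2 → ∀ δ₀ > 0, ∃ ε > 0,
    ∀ᶠ n in l, ¬ ∃ g : ℂ × ℂ → ℂ, DifferentiableOn ℂ g (ball ((a : ℂ), w₀) δ₀) ∧
      ∀ z ∈ ball ((a : ℂ), w₀) δ₀, |(g z).im| < b ∧ (z.1.im ≤ -ε → g z = th n z)

variable {Λ b d K : ℝ} {F q : ℂ → ℂ}
variable {ι : Type*} {U : Ultrafilter ι} {al p th : ι → ℂ × ℂ → ℂ}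

theorem deriv_sub_int (hF : ∀ x ∈ Sb b, F (x + 1) = F x + 2 * Real.pi) {x : ℂ} (hx : x ∈ Sb b)
    (k : ℤ) : deriv F (x - k) = deriv F x := by
  have h1 : (fun y => F (y + ((-k : ℤ) : ℂ))) =ᶠ[𝓝 x] fun y => F y + ((-k : ℤ) : ℂ) * (2 * Real.pi) := by
    filter_upwards [(isOpen_Sb b).mem_nhds hx] with y hy using F_add_int hF hy (-k)
  have h2 := h1.deriv_eq
  rw [deriv_comp_add_const, deriv_add_const] at h2
  rw [← h2]
  congr 1
  push_cast; ring

/-- limit of the positions on `OmB` -/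
theorem Wn.lim (h : Cv Λ b F q) (W : Wn (U : Filter ι) b d K F q al p th) :
    ∃ (N : ι → ℤ) (θ : ℂ × ℂ → ℂ), DifferentiableOn ℂ θ (OmB K) ∧
      TendstoLocallyUniformlyOn (fun n z => th n z - (N n : ℂ)) θ (U : Filter ι) (OmB K) ∧
      ∀ z ∈ OmB K, θ z ∈ Sb b := by
  obtain ⟨η, hη, hmid⟩ := W.mid
  have hf : LocStrip (U : Filter ι) th b (OmB K) := by
    intro z hz
    obtain ⟨V, hV, hn⟩ := W.om z hz
    obtain ⟨r, hr, hrV⟩ := Metric.mem_nhds_iff.1 hV
    refine ⟨r, hr, hn.mono fun n h1 => ⟨h1.1.mono hrV, fun y hy => ?_⟩⟩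
    have h2 : |(th n y).im| < b := (h1.2.2 y (hrV hy)).1
    exact h2.le
  have hz₀ : ((-I, 0) : ℂ × ℂ) ∈ OmB K := vert_mem (by simp)
  obtain ⟨N, θ, -, h1, h2, h3, -⟩ := ult_strip U (isOpen_OmB K) (preconn_OmB W.K0) h.b0 hη hf
    hz₀ hmid
  exact ⟨N, θ, h1, h2, fun z hz => h3 z hz⟩

/-- the data of 920 -/
theorem Wn.pd (h : Cv Λ b F q) (W : Wn (U : Filter ι) b d K F q al p th) :
    PD (U : Filter ι) b F q al p th where
  pos := by
    intro z hz
    obtain ⟨V, hV, hn⟩ := W.om z (Or.inl hz)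
    exact ⟨V, hV, hn.mono fun n h1 => ⟨h1.1, fun z' hz' =>
      ⟨(h1.2.2 z' hz').1, (h1.2.2 z' hz').2.1⟩⟩⟩
  mid := by
    obtain ⟨N, θ, -, h2, h3⟩ := W.lim h
    have hz : ((-I, I) : ℂ × ℂ) ∈ GB := by
      constructor
      · show (-I).im < 0
        simp
      · show 0 < I.im
        simp
    have hzO : ((-I, I) : ℂ × ℂ) ∈ OmB K := Or.inl hz
    have h4 : |(θ (-I, I)).im| < b := h3 _ hzO
    refine ⟨(-I, I), hz, (b - |(θ (-I, I)).im|) / 2, by linarith, ?_⟩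
    have h5 := (h2.tendsto_at hzO)
    have h6 := Metric.tendsto_nhds.1 h5 ((b - |(θ (-I, I)).im|) / 2) (by linarith)
    filter_upwards [h6] with n hn
    rw [dist_eq_norm] at hn
    have h7 := (Complex.abs_im_le_norm _).trans hn.le
    have h8 : (th n (-I, I) - (N n : ℂ) - θ (-I, I)).im = (th n (-I, I)).im - (θ (-I, I)).im := by
      simp
    rw [h8] at h7
    have h9 := abs_sub_abs_le_abs_sub (th n (-I, I)).im (θ (-I, I)).im
    linarith
  touch := W.touch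

/-- the limit position is not always R2 -/
theorem Wn.nr (hC : Cv Λ b F q) (hF : ∀ x ∈ Sb b, F (x + 1) = F x + 2 * Real.pi)
    (W : Wn (U : Filter ι) b d K F q al p th) {N : ι → ℤ} {θ : ℂ × ℂ → ℂ}
    (hθd : DifferentiableOn ℂ θ (OmB K))
    (hlim : TendstoLocallyUniformlyOn (fun n z => th n z - (N n : ℂ)) θ (U : Filter ι) (OmB K))
    (hθ : ∀ z ∈ OmB K, θ z ∈ Sb b) : ∃ κ : ℂ, κ.im < 0 ∧ deriv F (θ (κ, 0)) ≠ 0 := by
  obtain ⟨C, hC0, c₁, hc₁, hev⟩ := W.nr2
  classical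
  have hch : ∃ k : ι → ℂ, ∀ᶠ n in (U : Filter ι), |(k n).re| ≤ C ∧ -(k n).im ≤ C ∧
      1 ≤ C * (-(k n).im) ∧ c₁ ≤ ‖deriv F (th n (k n, 0))‖ := by
    refine ⟨fun n => if h : ∃ κ : ℂ, |κ.re| ≤ C ∧ -κ.im ≤ C ∧ 1 ≤ C * (-κ.im) ∧
      c₁ ≤ ‖deriv F (th n (κ, 0))‖ then h.choose else 0, ?_⟩
    filter_upwards [hev] with n hn
    simp only [hn, dite_true]
    exact hn.choose_spec
  obtain ⟨k, hk⟩ := hch
  have hcomp : IsCompact {κ : ℂ | |κ.re| ≤ C ∧ -κ.im ≤ C ∧ 1 ≤ C * (-κ.im)} := by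
    refine (isCompact_closedBall (0 : ℂ) (C + C)).of_isClosed_subset ?_ ?_
    · exact (isClosed_le (continuous_re.abs) continuous_const).inter
        ((isClosed_le continuous_im.neg continuous_const).inter
          (isClosed_le continuous_const (continuous_const.mul continuous_im.neg)))
    · rintro κ ⟨h1, h2, h3⟩
      rw [mem_closedBall_zero_iff]
      have h4 : 0 < -κ.im := by
        by_contra hcon
        push Not at hcon
        have := mul_nonpos_of_nonneg_of_nonpos hC0.le hcon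
        linarith
      have h5 : |κ.im| ≤ C := by rw [abs_of_neg (by linarith)]; exact h2
      exact (Complex.norm_le_abs_re_add_abs_im κ).trans (by linarith)
  obtain ⟨κ, hκ, hκt⟩ := hcomp.ultrafilter_le_nhds (U.map k) (by
    rw [le_principal_iff]
    exact hk.mono fun n hn => ⟨hn.1, hn.2.1, hn.2.2.1⟩)
  have hκt' : Tendsto k U (𝓝 κ) := hκt
  have hκ0 : κ.im < 0 := by
    by_contra hcon
    push Not at hcon
    have := mul_nonpos_of_nonneg_of_nonpos hC0.le (show -κ.im ≤ 0 by linarith)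
    linarith [hκ.2.2]
  refine ⟨κ, hκ0, fun hzero => ?_⟩
  have hm : ((κ, 0) : ℂ × ℂ) ∈ OmB K := vert_mem hκ0
  have t1 : Tendsto (fun n => ((k n, 0) : ℂ × ℂ)) (U : Filter ι) (𝓝 ((κ, 0) : ℂ × ℂ)) :=
    hκt'.prodMk_nhds tendsto_const_nhds
  have t1' : Tendsto (fun n => ((k n, 0) : ℂ × ℂ)) (U : Filter ι) (𝓝[OmB K] ((κ, 0) : ℂ × ℂ)) :=
    tendsto_nhdsWithin_iff.2 ⟨t1, t1.eventually ((isOpen_OmB K).mem_nhds hm)⟩
  have t2 : Tendsto (fun n => th n (k n, 0) - (N n : ℂ)) (U : Filter ι) (𝓝 (θ (κ, 0))) :=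
    TendstoLocallyUniformlyOn.tendsto_comp hlim (hθd.continuousOn _ hm) hm t1'
  have t3 : Tendsto (fun n => deriv F (th n (k n, 0) - (N n : ℂ))) (U : Filter ι)
      (𝓝 (deriv F (θ (κ, 0)))) :=
    ((Cv.dF1 hC).continuousOn.continuousAt ((isOpen_Sb b).mem_nhds (hθ _ hm))).tendsto.comp t2
  rw [hzero] at t3
  have t4 := t3.norm
  rw [norm_zero] at t4
  have t5 : ∀ᶠ n in (U : Filter ι), c₁ ≤ ‖deriv F (th n (k n, 0) - (N n : ℂ))‖ := by
    obtain ⟨V, hV, hn⟩ := W.om _ hm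
    filter_upwards [hn, hk, t1.eventually hV] with n a1 a2 a3
    have a4 : th n (k n, 0) ∈ Sb b := (a1.2.2 _ a3).1
    rw [deriv_sub_int hF a4]
    exact a2.2.2.2
  have := ge_of_tendsto t4 t5
  linarith

/-- a function with `sin = 0` on the base box is constant -/
theorem const_of_sin {D : ℂ × ℂ → ℂ} (hD : DifferentiableOn ℂ D GB)
    (h0 : ∀ z ∈ GB, Complex.sin (D z) = 0) : ∃ k : ℤ, ∀ z ∈ GB, D z = k * Real.pi := by
  have hfd : ∀ z ∈ GB, fderiv ℂ D z = 0 := by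
    intro z hz
    have h1 : HasFDerivAt D (fderiv ℂ D z) z :=
      (hD.differentiableAt (isOpen_GB.mem_nhds hz)).hasFDerivAt
    have h2 : HasFDerivAt (fun z => Complex.sin (D z)) (Complex.cos (D z) • fderiv ℂ D z) z :=
      h1.csin
    have h3 : (fun z => Complex.sin (D z)) =ᶠ[𝓝 z] fun _ => 0 := by
      filter_upwards [isOpen_GB.mem_nhds hz] with y hy using h0 y hy
    have h4 : HasFDerivAt (fun z => Complex.sin (D z)) (0 : ℂ × ℂ →L[ℂ] ℂ) z :=
      (hasFDerivAt_const (0 : ℂ) z).congr_of_eventuallyEq h3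
    have h5 := h2.unique h4
    have h6 : Complex.cos (D z) ≠ 0 := by
      intro h7
      have := Complex.sin_sq_add_cos_sq (D z)
      rw [h7, h0 z hz] at this
      norm_num at this
    exact (smul_eq_zero.1 h5).resolve_left h6
  have hm : ((-I, I) : ℂ × ℂ) ∈ GB := by
    constructor
    · show (-I).im < 0
      simp
    · show 0 < I.im
      simp
  obtain ⟨k, hk⟩ := Complex.sin_eq_zero_iff.1 (h0 _ hm)
  refine ⟨k, fun z hz => ?_⟩
  rw [← hk]
  exact convex_GB.is_const_of_fderivWithin_eq_zero (𝕜 := ℂ) hD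
    (fun y hy => by rw [fderivWithin_of_isOpen isOpen_GB hy]; exact hfd y hy) hz hm

theorem norm_sin_sub_int (x : ℂ) (k : ℤ) : ‖Complex.sin (x - k * Real.pi)‖ = ‖Complex.sin x‖ := by
  have h1 : ‖Complex.cos (k * Real.pi)‖ = 1 := by
    have h2 := Complex.sin_sq_add_cos_sq ((k : ℂ) * Real.pi)
    rw [Complex.sin_int_mul_pi] at h2
    have h3 : Complex.cos (k * Real.pi) ^ 2 = 1 := by linear_combination h2
    have h4 : ‖Complex.cos (k * Real.pi)‖ ^ 2 = 1 := by rw [← norm_pow, h3, norm_one]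
    exact (pow_eq_one_iff_of_nonneg (norm_nonneg _) two_ne_zero).1 h4
  rw [Complex.sin_sub, Complex.sin_int_mul_pi, mul_zero, sub_zero, norm_mul, h1, mul_one]

/-- **not tangent on the vertical ⇒ not tangent at one point of the base box** -/
theorem Wn.nt (hC : Cv Λ b F q) (hF : ∀ x ∈ Sb b, F (x + 1) = F x + 2 * Real.pi)
    (W : Wn (U : Filter ι) b d K F q al p th)
    {N' : ι → ℤ} {al' : ℂ × ℂ → ℂ} (hdal : DifferentiableOn ℂ al' GB)
    (hal : ∀ z ∈ GB, Tendsto (fun n => al n z - 2 * Real.pi * N' n) (U : Filter ι) (𝓝 (al' z)))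
    {c : ℝ} (hc : 0 < c)
    (hnt : ∀ᶠ n in (U : Filter ι), c ≤ ‖Complex.sin (al n (-I, 0) - F (th n (-I, 0)))‖) :
    ∃ z₁ ∈ GB, ∃ c' > 0, ∀ᶠ n in (U : Filter ι),
      c' ≤ ‖Complex.sin (al n z₁ - F (th n z₁))‖ := by
  by_contra hcon
  push Not at hcon
  have hsin0 : ∀ z ∈ GB, Tendsto (fun n => Complex.sin (al n z - F (th n z))) (U : Filter ι)
      (𝓝 0) := by
    intro z hz
    rw [Metric.tendsto_nhds]
    intro ε hε
    filter_upwards [hcon z hz ε hε] with n hn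
    rw [dist_eq_norm, sub_zero]
    exact hn
  obtain ⟨N, θ, dθ, hlim, hθ⟩ := W.lim hC
  have hGO : GB ⊆ OmB K := fun z hz => Or.inl hz
  -- the limit of del on the base box
  have hDlim : ∀ z ∈ GB, Tendsto (fun n => al n z - F (th n z) - 2 * Real.pi * N' n +
      2 * Real.pi * N n) (U : Filter ι) (𝓝 (al' z - F (θ z))) := by
    intro z hz
    have t2 : Tendsto (fun n => th n z - (N n : ℂ)) (U : Filter ι) (𝓝 (θ z)) :=
      hlim.tendsto_at (hGO hz)
    have t3 : Tendsto (fun n => F (th n z - (N n : ℂ))) (U : Filter ι) (𝓝 (F (θ z))) :=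
      (hC.dF.continuousOn.continuousAt ((isOpen_Sb b).mem_nhds (hθ z (hGO hz)))).tendsto.comp t2
    refine ((hal z hz).sub t3).congr' ?_
    obtain ⟨V, hV, hn⟩ := W.om z (hGO hz)
    filter_upwards [hn] with n hn
    have h2 := (hn.2.2 z (mem_of_mem_nhds hV)).1
    have h3 := F_add_int hF h2 (-N n)
    have h4 : th n z - (N n : ℂ) = th n z + ((-N n : ℤ) : ℂ) := by push_cast; ring
    rw [h4, h3]
    push_cast; ring
  have hD0 : ∀ z ∈ GB, Complex.sin (al' z - F (θ z)) = 0 := by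
    intro z hz
    have t1 := (Complex.continuous_sin.tendsto _).comp (hDlim z hz)
    refine tendsto_nhds_unique (t1.congr fun n => ?_) (hsin0 z hz)
    have e1 : al n z - F (th n z) - 2 * Real.pi * N' n + 2 * Real.pi * N n =
        al n z - F (th n z) + ((N n - N' n : ℤ) : ℂ) * (2 * Real.pi) := by push_cast; ring
    simp only [Function.comp]
    rw [e1, Complex.sin_add_int_mul_two_pi]
  obtain ⟨k, hk⟩ := const_of_sin (D := fun z => al' z - F (θ z))
    (hdal.sub (hC.dF.comp (dθ.mono hGO) fun z hz => hθ z (hGO hz))) hD0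
  -- the normalised function
  set f : ι → ℂ × ℂ → ℂ := fun n z => (al n z - F (th n z) - 2 * Real.pi * N' n +
    2 * Real.pi * N n - k * Real.pi) / Real.pi with hf
  have hpi : (Real.pi : ℂ) ≠ 0 := by exact_mod_cast Real.pi_ne_zero
  have hfsin : ∀ n z (j : ℤ), f n z = j → Complex.sin (al n z - F (th n z)) = 0 := by
    intro n z j hj
    rw [hf] at hj
    simp only at hj
    rw [div_eq_iff hpi] at hj
    have e1 : al n z - F (th n z) = ((j + k + 2 * N' n - 2 * N n : ℤ) : ℂ) * Real.pi := by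
      push_cast
      linear_combination hj
    rw [e1, Complex.sin_int_mul_pi]
  have hh : DifferentiableOn ℂ (fun z => deriv F (θ z)) (OmB K) :=
    (Cv.dF1 hC).comp dθ fun z hz => hθ z hz
  have hfd : ∀ z ∈ OmB K, ∃ V ∈ 𝓝 z, ∀ᶠ n in (U : Filter ι), DifferentiableOn ℂ (f n) V := by
    intro z hz
    obtain ⟨V, hV, hn⟩ := W.om z hz
    refine ⟨V, hV, hn.mono fun n h1 => ?_⟩
    have h2 : DifferentiableOn ℂ (fun z => F (th n z)) V :=
      hC.dF.comp h1.1 fun z' hz' => (h1.2.2 z' hz').1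
    have h3 : DifferentiableOn ℂ (fun z => al n z - F (th n z)) V := h1.2.1.sub h2
    have h4 : DifferentiableOn ℂ (fun z => al n z - F (th n z) - 2 * Real.pi * N' n +
        2 * Real.pi * N n - k * Real.pi) V :=
      (((h3.sub_const (2 * Real.pi * N' n : ℂ)).add_const (2 * Real.pi * N n : ℂ)).sub_const
      (k * Real.pi : ℂ))
    rw [hf]
    simp only [div_eq_mul_inv]
    exact h4.mul_const ((Real.pi : ℂ)⁻¹)
  have hom : ∀ z ∈ OmB K, deriv F (θ z) ≠ 0 → ∃ V ∈ 𝓝 z, ∀ᶠ n in (U : Filter ι), ∀ z' ∈ V,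
      f n z' ≠ 0 ∧ f n z' ≠ 1 := by
    intro z hz hne
    obtain ⟨V, hV, hn⟩ := W.om z hz
    -- a ball of positions where F' does not vanish
    have hc1 : ContinuousAt (deriv F) (θ z) :=
      (Cv.dF1 hC).continuousOn.continuousAt ((isOpen_Sb b).mem_nhds (hθ z hz))
    obtain ⟨e, he, hball⟩ := Metric.eventually_nhds_iff_ball.1 (hc1.eventually_ne hne)
    have hc2 : ContinuousAt θ z := dθ.continuousOn.continuousAt ((isOpen_OmB K).mem_nhds hz)
    have hV2 : {z' | θ z' ∈ ball (θ z) (e / 2)} ∈ 𝓝 z :=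
      hc2.eventually (ball_mem_nhds _ (by positivity))
    obtain ⟨r, hr, hr2⟩ := tlu_near (isOpen_OmB K) hlim hz
    have hu := (hr2 r le_rfl).2
    refine ⟨V ∩ ({z' | θ z' ∈ ball (θ z) (e / 2)} ∩ ball z r),
      inter_mem hV (inter_mem hV2 (ball_mem_nhds _ hr)), ?_⟩
    filter_upwards [hn, Metric.tendstoUniformlyOn_iff.1 hu (e / 2) (by positivity)] with n h1 h2
    rintro z' ⟨hz1, hz2, hz3⟩
    have h3 := h2 z' hz3
    have h4 : dist (θ z') (θ z) < e / 2 := hz2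
    have h5 : th n z' - (N n : ℂ) ∈ ball (θ z) e := by
      rw [mem_ball]
      have := dist_triangle_left (th n z' - (N n : ℂ)) (θ z) (θ z')
      linarith
    obtain ⟨g1, g2, g3⟩ := h1.2.2 z' hz1
    have h6 : deriv F (th n z') ≠ 0 := by
      rw [← deriv_sub_int hF g1 (N n)]
      exact hball _ h5
    have h7 := (Mi_simple_iff hC g1 g2 h6).1 g3
    constructor
    · intro h8
      exact h7 (hfsin n z' 0 (by rw [h8]; simp))
    · intro h8
      exact h7 (hfsin n z' 1 (by rw [h8]; simp))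
  have hf0 : ∀ z ∈ GB, Tendsto (fun n => f n z) (U : Filter ι) (𝓝 0) := by
    intro z hz
    have t1 := ((hDlim z hz).sub_const ((k : ℂ) * Real.pi)).div_const (Real.pi : ℂ)
    rw [hk z hz] at t1
    simpa using t1
  have hzv : ((-I, 0) : ℂ × ℂ) ∈ OmB K := vert_mem (by simp)
  -- the limit position is not identically R2 near the vertical point
  have hhv : ∀ r > 0, ∃ z ∈ ball ((-I, 0) : ℂ × ℂ) r, deriv F (θ z) ≠ 0 := by
    intro r hr
    by_contra hcon2
    push Not at hcon2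
    obtain ⟨κ, hκ, hκ2⟩ := W.nr hC hF dθ hlim hθ
    have hA : AnalyticOnNhd ℂ (fun z => deriv F (θ z)) (OmB K) :=
      Vale.Agent.P097.Hol.analyticOnNhd_of_differentiableOn (isOpen_OmB K) hh
    have h1 : (fun z => deriv F (θ z)) =ᶠ[𝓝 ((-I, 0) : ℂ × ℂ)] 0 := by
      filter_upwards [ball_mem_nhds ((-I, 0) : ℂ × ℂ) hr] with z hz using hcon2 z hz
    exact hκ2 (hA.eqOn_zero_of_preconnected_of_eventuallyEq_zero (preconn_OmB W.K0) hzv h1
      (vert_mem hκ))
  -- slices through the vertical point meet the base box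
  have hG : ∀ v : ℂ × ℂ, v.2 ≠ 0 → ∃ ρ > 0, ∀ t : ℝ, 0 < t → t < ρ →
      ∃ ζ : ℂ, ‖ζ‖ = t ∧ ((-I, 0) : ℂ × ℂ) + ζ • v ∈ GB := by
    intro v hv
    have hv0 : 0 < ‖v.2‖ := norm_pos_iff.2 hv
    refine ⟨1 / (‖v.1‖ + 1), by positivity, fun t ht ht2 => ?_⟩
    refine ⟨t * (I * (starRingEnd ℂ) v.2 / ‖v.2‖), ?_, ?_⟩
    · rw [norm_mul, Complex.norm_real, Real.norm_eq_abs, abs_of_pos ht, norm_div, norm_mul,
        Complex.norm_I, RCLike.norm_conj, Complex.norm_real, Real.norm_eq_abs, abs_of_pos hv0,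
        one_mul, div_self hv0.ne', mul_one]
    · have hnorm : ‖(t : ℂ) * (I * (starRingEnd ℂ) v.2 / ‖v.2‖)‖ = t := by
        rw [norm_mul, Complex.norm_real, Real.norm_eq_abs, abs_of_pos ht, norm_div, norm_mul,
          Complex.norm_I, RCLike.norm_conj, Complex.norm_real, Real.norm_eq_abs, abs_of_pos hv0,
          one_mul, div_self hv0.ne', mul_one]
      constructor
      · show (-I + (t : ℂ) * (I * (starRingEnd ℂ) v.2 / ‖v.2‖) * v.1).im < 0
        rw [add_im]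
        have h1 := Complex.abs_im_le_norm ((t : ℂ) * (I * (starRingEnd ℂ) v.2 / ‖v.2‖) * v.1)
        rw [norm_mul, hnorm] at h1
        have h2 : t * ‖v.1‖ < 1 := by
          have h3 : t * (‖v.1‖ + 1) < 1 := by
            rwa [lt_div_iff₀ (by positivity)] at ht2
          nlinarith [norm_nonneg v.1]
        have h3 : (-I : ℂ).im = -1 := by simp
        rw [h3]
        linarith [(abs_le.1 h1).2]
      · show 0 < (0 + (t : ℂ) * (I * (starRingEnd ℂ) v.2 / ‖v.2‖) * v.2).im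
        have e1 : (0 : ℂ) + (t : ℂ) * (I * (starRingEnd ℂ) v.2 / ‖v.2‖) * v.2 =
            ((t * ‖v.2‖ : ℝ) : ℂ) * I := by
          have e2 : (starRingEnd ℂ) v.2 * v.2 = ((‖v.2‖ ^ 2 : ℝ) : ℂ) := by
            rw [mul_comm, Complex.mul_conj, Complex.normSq_eq_norm_sq]
          have hv0' : (‖v.2‖ : ℂ) ≠ 0 := by exact_mod_cast hv0.ne'
          rw [zero_add, show (t : ℂ) * (I * (starRingEnd ℂ) v.2 / ‖v.2‖) * v.2 =
            t * I * ((starRingEnd ℂ) v.2 * v.2) / ‖v.2‖ by ring, e2]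
          push_cast
          field_simp
        rw [e1]
        have e3 : (((t * ‖v.2‖ : ℝ) : ℂ) * I).im = t * ‖v.2‖ := by simp
        rw [e3]
        positivity
  have hfin := small_transfer (isOpen_OmB K) hh hfd hom hf0 hzv hhv hG
  -- contradiction
  have t1 : Tendsto (fun n => Complex.sin ((f n (-I, 0)) * Real.pi)) (U : Filter ι) (𝓝 0) := by
    have h1 := (hfin.mul_const (Real.pi : ℂ))
    rw [zero_mul] at h1
    have h2 := (Complex.continuous_sin.tendsto 0).comp h1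
    rw [Complex.sin_zero] at h2
    exact h2
  have t2 : ∀ n, ‖Complex.sin ((f n (-I, 0)) * Real.pi)‖ =
      ‖Complex.sin (al n (-I, 0) - F (th n (-I, 0)))‖ := by
    intro n
    rw [hf]
    simp only
    rw [div_mul_cancel₀ _ hpi]
    have e1 : al n (-I, 0) - F (th n (-I, 0)) - 2 * Real.pi * N' n + 2 * Real.pi * N n -
        k * Real.pi = al n (-I, 0) - F (th n (-I, 0)) + ((N n - N' n : ℤ) : ℂ) * (2 * Real.pi) -
        k * Real.pi := by push_cast; ring
    rw [e1, norm_sin_sub_int, Complex.sin_add_int_mul_two_pi]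
  have t3 := t1.norm
  rw [norm_zero] at t3
  have t4 := ge_of_tendsto t3 (hnt.mono fun n hn => hn.trans_eq (t2 n).symm)
  linarith

/-- **contradiction, honest lines, not tangent on the vertical** -/
theorem Wn.hon (hC : Cv Λ b F q) (hF : ∀ x ∈ Sb b, F (x + 1) = F x + 2 * Real.pi)
    (hq : ∀ x ∈ Sb b, q (x + 1) = q x) (W : Wn (U : Filter ι) b d K F q al p th)
    {N' : ι → ℤ} {al' p' : ℂ × ℂ → ℂ} (hdal : DifferentiableOn ℂ al' (WB d))
    (hal : TendstoLocallyUniformlyOn (fun n z => al n z - 2 * Real.pi * N' n) al'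
      (U : Filter ι) (WB d))
    (hp : TendstoLocallyUniformlyOn p p' (U : Filter ι) (WB d)) {c : ℝ} (hc : 0 < c)
    (hnt : ∀ᶠ n in (U : Filter ι), c ≤ ‖Complex.sin (al n (-I, 0) - F (th n (-I, 0)))‖) :
    False := by
  have hGW : GB ⊆ WB d := GB_sub_WB W.d0.le
  obtain ⟨z₁, hz₁, c', hc', h1⟩ := W.nt hC hF (hdal.mono hGW)
    (fun z hz => hal.tendsto_at (hGW hz)) hc hnt
  exact pai_H hC hF hq (W.pd hC) W.d0 W.wd hal hp hz₁ hc' h1

/-- **contradiction, isotropic lines** -/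
theorem Wn.iso (hC : Cv Λ b F q) (hF : ∀ x ∈ Sb b, F (x + 1) = F x + 2 * Real.pi)
    (hq : ∀ x ∈ Sb b, q (x + 1) = q x) (W : Wn (U : Filter ι) b d K F q al p th)
    {B' : ℂ × ℂ → ℂ}
    (hal : TendstoLocallyUniformlyOn (fun n z => Complex.exp (2 * I * al n z)) (fun _ => 0)
      (U : Filter ι) (WB d))
    (hp : TendstoLocallyUniformlyOn (fun n z => 2 * p n z * Complex.exp (I * al n z)) B'
      (U : Filter ι) (WB d)) : False :=
  pai_I hC hF hq (W.pd hC) W.d0 W.wd hal hp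

/-- **contradiction, isotropic lines** -/
theorem Wn.iso' (hC : Cv Λ b F q) (hF : ∀ x ∈ Sb b, F (x + 1) = F x + 2 * Real.pi)
    (hq : ∀ x ∈ Sb b, q (x + 1) = q x) (W : Wn (U : Filter ι) b d K F q al p th)
    {B' : ℂ × ℂ → ℂ}
    (hal : TendstoLocallyUniformlyOn (fun n z => Complex.exp (-(2 * I * al n z))) (fun _ => 0)
      (U : Filter ι) (WB d))
    (hp : TendstoLocallyUniformlyOn (fun n z => 2 * p n z * Complex.exp (-I * al n z)) B'
      (U : Filter ι) (WB d)) : False :=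
  pai_I' hC hF hq (W.pd hC) W.d0 W.wd hal hp

end Vale.Agent.P097.H83.AI
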