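import Vale.Agent.P097.H699.Normal
import Vale.Agent.P097.H190.Ult

/-!
# P097 / block (AI) (helper83), part 1: transfer of smallness to a boundary point of the base box

Functions of two variables, holomorphic on `Om`, which omit `0` and `1` (eventually) where a
fixed function `h ≢ 0` does not vanish, and tend to `0` on `G`: they tend to `0` at points of `Om`
which are limits of slices through `G`.
-/

set_option linter.all false

open Complex Metric Filter Topology Set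
open scoped ComplexConjugate

namespace Vale.Agent.P097.H83.AI

open Vale.Agent.P097.H699

/-- one variable: omitted values on an annulus, smallness at one point of the circle, maximum
principle -/
theorem small_center {t ε : ℝ} (ht : 0 < t) (hε : 0 < ε) {ζ₀ : ℂ} (hζ₀ : ‖ζ₀‖ = t) :
    ∃ δ > 0, ∀ f : ℂ → ℂ, DifferentiableOn ℂ f (ball 0 (2 * t)) →
      (∀ ζ : ℂ, t / 2 < ‖ζ‖ → ‖ζ‖ < 3 * t / 2 → f ζ ≠ 0 ∧ f ζ ≠ 1) → ‖f ζ₀‖ ≤ δ →
      ‖f 0‖ ≤ ε := by
  set U : Set ℂ := {ζ | t / 2 < ‖ζ‖ ∧ ‖ζ‖ < 3 * t / 2} with hU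
  have hUo : IsOpen U :=
    (isOpen_lt continuous_const continuous_norm).inter (isOpen_lt continuous_norm continuous_const)
  have hS : IsPreconnected (sphere (0 : ℂ) t) := isPreconnected_sphere (by
    rw [Complex.rank_real_complex]; exact Nat.one_lt_ofNat) 0 t
  have hSU : sphere (0 : ℂ) t ⊆ U := by
    intro ζ hζ
    rw [mem_sphere_zero_iff_norm] at hζ
    exact ⟨by rw [hζ]; linarith, by rw [hζ]; linarith⟩
  obtain ⟨δ, hδ, h⟩ := Om.small hUo hS hSU (isCompact_sphere (0 : ℂ) t) subset_rfl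
    (z₀ := ζ₀) (by rw [mem_sphere_zero_iff_norm]; exact hζ₀) hε
  refine ⟨δ, hδ, fun f hf hom hfδ => ?_⟩
  have hOm : Om U f := by
    refine ⟨hf.mono fun ζ hζ => ?_, fun ζ hζ => hom ζ hζ.1 hζ.2⟩
    rw [mem_ball_zero_iff]
    have := hζ.2
    linarith
  have h1 := h f hOm hfδ
  have hd : DiffContOnCl ℂ f (ball 0 t) := by
    refine (hf.mono ?_).diffContOnCl
    rw [closure_ball (0 : ℂ) ht.ne']
    exact closedBall_subset_ball (by linarith)
  refine Complex.norm_le_of_forall_mem_frontier_norm_le isBounded_ball hd (C := ε) ?_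
    (subset_closure (mem_ball_self ht))
  intro ζ hζ
  rw [frontier_ball (0 : ℂ) ht.ne'] at hζ
  exact h1 ζ hζ

variable {ι : Type*} {U : Ultrafilter ι}

/-- eventually uniformly on a compact set -/
theorem ev_compact {X : Type*} [TopologicalSpace X] {l : Filter ι} {K : Set X} (hK : IsCompact K)
    {Q : ι → X → Prop} (h : ∀ z ∈ K, ∃ V ∈ 𝓝 z, ∀ᶠ n in l, ∀ z' ∈ V, Q n z') :
    ∀ᶠ n in l, ∀ z ∈ K, Q n z := by
  refine hK.induction_on (p := fun s => ∀ᶠ n in l, ∀ z ∈ s, Q n z) (by simp) ?_ ?_ ?_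
  · intro s t hst ht
    exact ht.mono fun n hn z hz => hn z (hst hz)
  · intro s t hs ht
    filter_upwards [hs, ht] with n h1 h2 z hz
    rcases hz with hz | hz
    · exact h1 z hz
    · exact h2 z hz
  · intro z hz
    obtain ⟨V, hV, hn⟩ := h z hz
    exact ⟨V, mem_nhdsWithin_of_mem_nhds hV, hn⟩

/-- **transfer of smallness** to a point `zv` of `Om` -/
theorem small_transfer {Om G : Set (ℂ × ℂ)} (hOm : IsOpen Om) {h : ℂ × ℂ → ℂ}
    (hh : DifferentiableOn ℂ h Om) {f : ι → ℂ × ℂ → ℂ}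
    (hf : ∀ z ∈ Om, ∃ V ∈ 𝓝 z, ∀ᶠ n in (U : Filter ι), DifferentiableOn ℂ (f n) V)
    (hom : ∀ z ∈ Om, h z ≠ 0 → ∃ V ∈ 𝓝 z, ∀ᶠ n in (U : Filter ι), ∀ z' ∈ V,
      f n z' ≠ 0 ∧ f n z' ≠ 1)
    (h0 : ∀ z ∈ G, Tendsto (fun n => f n z) (U : Filter ι) (𝓝 0))
    {zv : ℂ × ℂ} (hzv : zv ∈ Om)
    (hhv : ∀ r > 0, ∃ z ∈ ball zv r, h z ≠ 0)
    (hG : ∀ v : ℂ × ℂ, v.2 ≠ 0 → ∃ ρ > 0, ∀ t : ℝ, 0 < t → t < ρ →
      ∃ ζ : ℂ, ‖ζ‖ = t ∧ zv + ζ • v ∈ G) :
    Tendsto (fun n => f n zv) (U : Filter ι) (𝓝 0) := by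
  obtain ⟨r, hr, hrO⟩ := Metric.isOpen_iff.1 hOm zv hzv
  -- a direction
  obtain ⟨v, hv2, hvr, hv⟩ : ∃ v : ℂ × ℂ, v.2 ≠ 0 ∧ ‖v‖ < r / 2 ∧ h (zv + v) ≠ 0 := by
    obtain ⟨z, hz, hhz⟩ := hhv (r / 2) (by positivity)
    have hzO : z ∈ Om := hrO (ball_subset_ball (by linarith) hz)
    have hc : ContinuousAt h z := (hh.continuousOn).continuousAt (hOm.mem_nhds hzO)
    have h1 : ∀ᶠ w in 𝓝 z, h w ≠ 0 ∧ w ∈ ball zv (r / 2) :=
      (hc.eventually_ne hhz).and (isOpen_ball.mem_nhds hz)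
    have h2 : ∀ᶠ ζ in 𝓝 (0 : ℂ), h (z + ((0 : ℂ), ζ)) ≠ 0 ∧ z + ((0 : ℂ), ζ) ∈ ball zv (r / 2) := by
      have hcont : ContinuousAt (fun ζ : ℂ => z + ((0 : ℂ), ζ)) 0 := by fun_prop
      have : Tendsto (fun ζ : ℂ => z + ((0 : ℂ), ζ)) (𝓝 0) (𝓝 z) := by
        have h3 := hcont.tendsto
        have e : z + ((0 : ℂ), (0 : ℂ)) = z := by
          ext <;> simp
        rwa [e] at h3
      exact this.eventually h1
    have h3 : ∃ᶠ ζ in 𝓝 (0 : ℂ), ζ ≠ zv.2 - z.2 := by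
      intro hcon
      have h4 : ∀ᶠ ζ in 𝓝 (0 : ℂ), ζ = zv.2 - z.2 := hcon.mono fun ζ hζ => not_not.1 hζ
      have h5 : ∀ᶠ ζ in 𝓝 (0 : ℂ), ζ = 0 := by
        have h6 := h4.self_of_nhds
        filter_upwards [h4] with ζ hζ
        rw [hζ, ← h6]
      obtain ⟨e, he, hball⟩ := Metric.eventually_nhds_iff_ball.1 h5
      have h7 := hball ((e / 2 : ℝ) : ℂ) (by
        rw [mem_ball_zero_iff, Complex.norm_real, Real.norm_eq_abs, abs_of_pos (by positivity)]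
        linarith)
      rw [Complex.ofReal_eq_zero] at h7
      linarith
    obtain ⟨ζ, hζ1, hζ2, hζ3⟩ := (h3.and_eventually h2).exists
    refine ⟨z + ((0 : ℂ), ζ) - zv, ?_, ?_, ?_⟩
    · intro h4
      apply hζ1
      have h5 : z.2 + ζ - zv.2 = 0 := h4
      linear_combination h5
    · rw [← dist_eq_norm]; exact hζ3
    · rw [add_sub_cancel]; exact hζ2
  have hv0 : 0 < ‖v‖ := norm_pos_iff.2 (fun h => hv2 (by rw [h]; rfl))
  -- the slice
  have hball : ∀ ζ : ℂ, ‖ζ‖ < 2 → zv + ζ • v ∈ Om := by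
    intro ζ hζ
    apply hrO
    rw [mem_ball, dist_eq_norm, add_sub_cancel_left, norm_smul]
    have : ‖ζ‖ * ‖v‖ ≤ 2 * ‖v‖ := mul_le_mul_of_nonneg_right hζ.le hv0.le
    linarith
  set g : ℂ → ℂ := fun ζ => h (zv + ζ • v) with hg
  have haff : Differentiable ℂ (fun ζ : ℂ => zv + ζ • v) := by fun_prop
  have hgd : DifferentiableOn ℂ g (ball 0 2) :=
    hh.comp haff.differentiableOn fun ζ hζ => hball ζ (mem_ball_zero_iff.1 hζ)
  have hga : AnalyticOnNhd ℂ g (ball 0 2) := hgd.analyticOnNhd isOpen_ball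
  have hg1 : g 1 ≠ 0 := by
    rw [hg]; simp only [one_smul]; exact hv
  obtain ⟨t₀, ht₀, hgt⟩ : ∃ t₀ > 0, ∀ ζ : ℂ, ζ ≠ 0 → ‖ζ‖ < t₀ → g ζ ≠ 0 := by
    rcases (hga 0 (mem_ball_self (by norm_num))).eventually_eq_zero_or_eventually_ne_zero
      with h1 | h1
    · exfalso
      have h2 := hga.eqOn_zero_of_preconnected_of_eventuallyEq_zero
        (convex_ball (0 : ℂ) 2).isPreconnected (mem_ball_self (by norm_num)) h1
      exact hg1 (h2 (by rw [mem_ball_zero_iff]; simp))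
    · rw [eventually_nhdsWithin_iff] at h1
      obtain ⟨e, he, hball⟩ := Metric.eventually_nhds_iff_ball.1 h1
      exact ⟨e, he, fun ζ hζ hζe => hball ζ (mem_ball_zero_iff.2 hζe) hζ⟩
  obtain ⟨ρ, hρ, hGρ⟩ := hG v hv2
  set t : ℝ := min (t₀ / 4) (min (ρ / 2) (1 / 4)) with htdef
  have ht : 0 < t := by positivity
  have ht1 : t ≤ t₀ / 4 := min_le_left _ _
  have ht2 : t ≤ ρ / 2 := (min_le_right _ _).trans (min_le_left _ _)
  have ht3 : t ≤ 1 / 4 := (min_le_right _ _).trans (min_le_right _ _)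
  obtain ⟨ζ₀, hζ₀, hζG⟩ := hGρ t ht (by linarith)
  -- eventually, on the slice
  have hdiff : ∀ᶠ n in (U : Filter ι), DifferentiableOn ℂ (fun ζ : ℂ => f n (zv + ζ • v))
      (ball 0 (2 * t)) := by
    have h1 := ev_compact (l := (U : Filter ι)) (isCompact_closedBall (0 : ℂ) (2 * t))
      (Q := fun n ζ => DifferentiableAt ℂ (f n) (zv + ζ • v)) (by
        intro ζ hζ
        rw [mem_closedBall_zero_iff] at hζ
        obtain ⟨V, hV, hn⟩ := hf (zv + ζ • v) (hball ζ (by linarith))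
        obtain ⟨W, hWV, hWo, hWm⟩ := _root_.mem_nhds_iff.1 hV
        refine ⟨(fun ζ : ℂ => zv + ζ • v) ⁻¹' W, haff.continuous.continuousAt.preimage_mem_nhds
          (hWo.mem_nhds hWm), hn.mono fun n hn ζ' hζ' => ?_⟩
        exact (hn.mono hWV).differentiableAt (hWo.mem_nhds hζ'))
    filter_upwards [h1] with n hn ζ hζ
    exact ((hn ζ (ball_subset_closedBall hζ)).comp ζ (haff ζ)).differentiableWithinAt
  have homit : ∀ᶠ n in (U : Filter ι), ∀ ζ : ℂ, t / 2 < ‖ζ‖ → ‖ζ‖ < 3 * t / 2 →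
      f n (zv + ζ • v) ≠ 0 ∧ f n (zv + ζ • v) ≠ 1 := by
    have hK : IsCompact (closedBall (0 : ℂ) (3 * t / 2) ∩ {ζ | t / 2 ≤ ‖ζ‖}) :=
      (isCompact_closedBall _ _).inter_right (isClosed_le continuous_const continuous_norm)
    have h1 := ev_compact (l := (U : Filter ι)) hK
      (Q := fun n ζ => f n (zv + ζ • v) ≠ 0 ∧ f n (zv + ζ • v) ≠ 1) (by
        rintro ζ ⟨hζ1, hζ2⟩
        rw [mem_closedBall_zero_iff] at hζ1
        have hζ2' : t / 2 ≤ ‖ζ‖ := hζ2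
        have hζ0 : ζ ≠ 0 := by
          rintro rfl
          rw [norm_zero] at hζ2'
          linarith
        obtain ⟨V, hV, hn⟩ := hom (zv + ζ • v) (hball ζ (by linarith))
          (hgt ζ hζ0 (by linarith))
        exact ⟨(fun ζ : ℂ => zv + ζ • v) ⁻¹' V,
          haff.continuous.continuousAt.preimage_mem_nhds hV, hn.mono fun n hn ζ' hζ' => hn _ hζ'⟩)
    filter_upwards [h1] with n hn ζ hζ1 hζ2
    exact hn ζ ⟨by rw [mem_closedBall_zero_iff]; exact hζ2.le, hζ1.le⟩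
  rw [Metric.tendsto_nhds]
  intro ε hε
  obtain ⟨δ, hδ, hsm⟩ := small_center ht (half_pos hε) hζ₀
  have h1 := Metric.tendsto_nhds.1 (h0 _ hζG) δ hδ
  filter_upwards [h1, hdiff, homit] with n k1 k2 k3
  rw [dist_eq_norm, sub_zero] at k1 ⊢
  have h2 := hsm (fun ζ => f n (zv + ζ • v)) k2 k3 k1.le
  simp only [zero_smul, add_zero] at h2
  linarith

end Vale.Agent.P097.H83.AI
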